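import Vale.Agent.P333.Defs
import Vale.Agent.P333.Main

namespace Vale.Agent.Results.P333.TwoApprox

open Vale.Agent.P333

theorem result : ∃ (A : List (List ℕ) → List ℕ)
    (tm : Turing.TM2ComputableInPolyTime (encList (encList encNat)) (encList encNat) A),
    (∀ k, Finite (tm.tm.Γ k)) ∧ ∀ S : List (List ℕ), (∀ s ∈ S, s <:+: A S) ∧
      ∀ T : List ℕ, (∀ s ∈ S, s <:+: T) → (A S).length ≤ 2 * T.length := by
  obtain ⟨tm, h⟩ := alg_poly
  exact ⟨alg, tm, h, alg_spec⟩

end Vale.Agent.Results.P333.TwoApprox
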